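import Vale.Agent.P125.J10.Defs58

set_option linter.unusedSectionVars false
set_option linter.unusedVariables false

namespace Vale.Agent.P125.J10

open scoped BigOperators
open Vale.Agent.P125.Dich

theorem stSmall_93 : StSmall := by
  intro S _ _ μ P hC hL n f
  obtain ⟨h1, h2, h3, h4, h5⟩ := hC
  have hw0 : ∀ a b k, 0 ≤ w f a b k := fun a b k => abs_nonneg _
  have hell0 : ∀ a b, 0 ≤ ell f a b := fun a b => Finset.sum_nonneg fun k _ => hw0 a b k
  have hU0 : 0 ≤ U μ P f := Finset.sum_nonneg fun a _ => Finset.sum_nonneg fun b _ =>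
    mul_nonneg (mul_nonneg (h1 a) (h3 a b)) (sq_nonneg _)
  have hav : av μ (l2 P f) = U μ P f := by
    unfold av l2 U
    apply Finset.sum_congr rfl
    intro a _
    rw [Finset.mul_sum]
    apply Finset.sum_congr rfl
    intro b _
    ring
  have hwsymm : ∀ a b k, w f a b k = w f b a k := fun a b k => abs_sub_comm _ _
  refine ⟨?_, ?_, ?_, ?_, hav, ?_, hU0, ?_, hwsymm, ?_⟩
  · intro k y
    exact Finset.sum_nonneg fun x _ => mul_nonneg (h3 y x) (hw0 y x k)
  · intro y
    unfold om lbar ell
    rw [Finset.sum_comm]
    apply Finset.sum_congr rfl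
    intro x _
    rw [Finset.mul_sum]
  · intro y
    exact Finset.sum_nonneg fun x _ => mul_nonneg (h3 y x) (hell0 y x)
  · intro y
    exact Finset.sum_nonneg fun x _ => mul_nonneg (h3 y x) (sq_nonneg _)
  · rw [← hav]
    apply hL.av_mono
    intro x
    have := hL.sq_op 1 (fun y => ell f x y) x
    rw [hL.op_one, hL.op_one] at this
    exact this
  · intro k a b
    have e : F f k b - F f k a = ∑ i, if i ≤ k then f b i - f a i else 0 := by
      unfold F
      rw [← Finset.sum_sub_distrib]
      apply Finset.sum_congr rfl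
      intro i _
      split_ifs <;> ring
    rw [e]
    refine (Finset.abs_sum_le_sum_abs _ _).trans ?_
    unfold ell w
    apply Finset.sum_le_sum
    intro i _
    split_ifs
    · exact le_refl _
    · rw [abs_zero]
      exact abs_nonneg _
  · intro a b
    unfold ell
    apply Finset.sum_congr rfl
    intro k _
    exact hwsymm a b k

end Vale.Agent.P125.J10
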