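import Vale.Agent.P125.J10.Lib_75
import Vale.Agent.P125.J10.Own_33
import Vale.Agent.P125.J10.OwnT_27
import Vale.Agent.P125.J10.Small_93
import Vale.Agent.P125.J10.Triv1_69
import Vale.Agent.P125.J10.Triv2_85
import Vale.Agent.P125.J10.Sqrt_33
import Vale.Agent.P125.J10.Dual_68
import Vale.Agent.P125.J10.Down_73
import Vale.Agent.P125.J10.Back_88
import Vale.Agent.P125.J10.En_56
import Vale.Agent.P125.J10.BB_38
import Vale.Agent.P125.J10.Xi_87
import Vale.Agent.P125.J10.R_14
import Vale.Agent.P125.J10.Q_64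
import Vale.Agent.P125.J10.Glue_10
import Vale.Agent.P125.J10.Wrap_75
import Vale.Agent.P125.J10.Two_10
import Vale.Agent.P125.J10.Rem_10

/-!
# P125 Poly: assembly of the whole chain (polynomial rate for the summing operators)
-/

namespace Vale.Agent.P125.J10

theorem stCore_10 : StCore :=
  have hs : StSmall := stSmall_93
  have hlib : StLib := stLib_75
  have hown : StOwn := stOwn_33
  have hownT : StOwnT := stOwnT_27 hown
  have htwo : StTwo := stTwo_10 hown
  have hblk : StBlk := stBlk_10 hlib hs (stTriv2_85 hs) stSqrt_33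
  have hrem : StRem := stRem_10 hs (stTriv1_69 hs)
  have hxi : StXi := stXi_87 hs (stEn_56 hs) (stBB_38 hs)
  have hR : StR := stR_14 hs stDual_68 (stDown_73 hownT hs) (stBack_88 hs) hxi
  have hQ : StQ := stQ_64 hs hrem hblk hR
  stCore_g10 hlib htwo hQ hs

theorem plain_10 : ∀ t : ℕ, 1 ≤ t →
    ∀ (n : ℕ) (S : Type) [Fintype S] [DecidableEq S] (μ : S → ℝ) (P : Matrix S S ℝ),
      (∀ i, 0 ≤ μ i) → ∑ i, μ i = 1 → (∀ i j, 0 ≤ P i j) → (∀ i, ∑ j, P i j = 1) →
      (∀ i j, μ i * P i j = μ j * P j i) → ∀ f : S → Fin n → ℝ,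
        ∑ i, ∑ j, μ i * (P ^ t) i j *
            (Finset.univ.sup' Finset.univ_nonempty (fun k : Fin (n + 1) =>
              |∑ l : Fin n, if l.val < k.val then f j l - f i l else 0|)) ^ 2 ≤
          24 * (t : ℝ) ^ (11 / 6 : ℝ) *
            ∑ i, ∑ j, μ i * P i j * (∑ l : Fin n, |f j l - f i l|) ^ 2 :=
  stWrap_75 stCore_10

end Vale.Agent.P125.J10
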