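import Vale.Agent.P125.J10.Defs58

set_option linter.unusedSectionVars false
set_option linter.unusedVariables false

/-!
# P125 Poly: `StBlk` (Step 3, block decomposition) from `StLib`, `StSmall`, `StTriv2`, `StSqrt`
-/

namespace Vale.Agent.P125.J10

open scoped BigOperators
open Vale.Agent.P125.Dich

section
variable {S : Type} [Fintype S] [DecidableEq S]

theorem op_pow_10 (P : Matrix S S ℝ) (τ j : ℕ) (g : S → ℝ) : op (P ^ τ) j g = op P (τ * j) g := by
  unfold op
  rw [← pow_mul]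

theorem av_sum_10 {ι : Type} (μ : S → ℝ) (s : Finset ι) (g : ι → S → ℝ) :
    av μ (fun b => ∑ j ∈ s, g j b) = ∑ j ∈ s, av μ (g j) := by
  unfold av
  rw [Finset.sum_comm]
  refine Finset.sum_congr rfl fun b _ => ?_
  rw [Finset.mul_sum]

theorem av_smul_10 (μ : S → ℝ) (c : ℝ) (g : S → ℝ) :
    av μ (fun b => c * g b) = c * av μ g := by
  unfold av
  rw [Finset.mul_sum]
  refine Finset.sum_congr rfl fun b _ => ?_
  ring

theorem op_nonneg_10 {μ : S → ℝ} {P : Matrix S S ℝ} (hL : Lib μ P) (k : ℕ) (g : S → ℝ)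
    (hg : ∀ y, 0 ≤ g y) (x : S) : 0 ≤ op P k g x := by
  have h := hL.op_mono k (fun _ => 0) g hg x
  rwa [hL.op_const] at h

end

theorem stBlk_10 (hlib : StLib) (hs : StSmall) (h2 : StTriv2) (h3 : StSqrt) : StBlk := by
  intro S _ _ μ P hc hL n f τ J
  obtain ⟨hom0, homsum, hlb0, hl20, havl2, havlb, hU0, hFell, hwsym, hellsym⟩ := hs S μ P hc hL n f
  have hcR : IsChain μ (P ^ τ) := isChain_pow hc τ
  have hLR : Lib μ (P ^ τ) := hlib S μ (P ^ τ) hcR
  set V : S → ℝ := fun z => (τ : ℝ) * ∑ i ∈ Finset.range τ, op P i (l2 P f) z with hV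
  set T : S → ℝ := fun b => ∑ j ∈ Finset.range J, op P (τ * j) V b with hT
  have hV0 : ∀ z, 0 ≤ V z := fun z =>
    mul_nonneg (Nat.cast_nonneg τ) (Finset.sum_nonneg fun i _ => op_nonneg_10 hL i _ hl20 z)
  have hT0 : ∀ b, 0 ≤ T b := fun b => Finset.sum_nonneg fun j _ => op_nonneg_10 hL _ _ hV0 b
  have hpt : ∀ k b, Ak P f (τ * J) k b ≤ Real.sqrt (T b) +
      ∑ j ∈ Finset.range J, op P (τ * j) (fun z => |hh P f τ k z|) b := by
    intro k b
    have h := h3 S μ (P ^ τ) hcR hLR (F f k) J 0 b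
    have e1 : ∀ z, ∑ y, (P ^ τ) z y * (F f k y - F f k z) = hh P f τ k z := by
      intro z
      unfold hh op
      simp only [mul_sub]
      rw [Finset.sum_sub_distrib, ← Finset.sum_mul, hL.pw_sum τ z, one_mul]
    simp only [op_pow_10, e1, ← pow_mul, zero_add] at h
    have e2 : ∑ y, (P ^ (τ * J)) b y * |F f k y - F f k b| = Ak P f (τ * J) k b := rfl
    rw [e2] at h
    refine h.trans (add_le_add (Real.sqrt_le_sqrt ?_) le_rfl)
    have e3 : (0 : ℝ) ^ 2 = 0 := by norm_num
    rw [e3, zero_add]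
    exact Finset.sum_le_sum fun j _ =>
      hL.op_mono (τ * j) _ _ (fun z => h2 S μ P hc hL n f k τ z) b
  have hQ : Qsum μ P f (τ * J) ≤ av μ (fun b => lbar P f b * Real.sqrt (T b)) +
      ∑ j ∈ Finset.range J, Rr μ P f τ (τ * j) := by
    unfold Qsum Qk Rr
    rw [Finset.sum_comm]
    have e0 : av μ (fun b => lbar P f b * Real.sqrt (T b))
        = ∑ k, av μ (fun b => om P f k b * Real.sqrt (T b)) := by
      rw [← av_sum_10]
      unfold av
      refine Finset.sum_congr rfl fun b _ => ?_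
      beta_reduce
      rw [← homsum b, Finset.sum_mul]
    rw [e0, ← Finset.sum_add_distrib]
    refine Finset.sum_le_sum fun k _ => ?_
    have e : av μ (fun b => om P f k b * Real.sqrt (T b)) +
        ∑ j ∈ Finset.range J, av μ (fun b => om P f k b *
          op P (τ * j) (fun z => |hh P f τ k z|) b)
        = av μ (fun b => om P f k b * (Real.sqrt (T b) +
          ∑ j ∈ Finset.range J, op P (τ * j) (fun z => |hh P f τ k z|) b)) := by
      rw [← av_sum_10]
      unfold av
      rw [← Finset.sum_add_distrib]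
      refine Finset.sum_congr rfl fun b _ => ?_
      beta_reduce
      rw [← Finset.mul_sum]
      ring
    rw [e]
    exact hL.av_mono _ _ (fun b => mul_le_mul_of_nonneg_left (hpt k b) (hom0 k b))
  have havV : av μ V = (τ : ℝ) * ((τ : ℝ) * U μ P f) := by
    rw [hV, av_smul_10, av_sum_10]
    congr 1
    have : ∀ i ∈ Finset.range τ, av μ (op P i (l2 P f)) = U μ P f := fun i _ => by
      rw [hL.av_op, havl2]
    rw [Finset.sum_congr rfl this, Finset.sum_const, Finset.card_range, nsmul_eq_mul]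
  have havT : av μ T = (J : ℝ) * ((τ : ℝ) ^ 2 * U μ P f) := by
    rw [hT, av_sum_10]
    have : ∀ j ∈ Finset.range J, av μ (op P (τ * j) V) = (τ : ℝ) * ((τ : ℝ) * U μ P f) :=
      fun j _ => by rw [hL.av_op, havV]
    rw [Finset.sum_congr rfl this, Finset.sum_const, Finset.card_range, nsmul_eq_mul]
    ring
  have hcs := hL.av_cs (lbar P f) (fun b => Real.sqrt (T b))
  have e4 : av μ (fun x => Real.sqrt (T x) ^ 2) = av μ T := by
    unfold av
    refine Finset.sum_congr rfl fun b _ => ?_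
    beta_reduce
    rw [Real.sq_sqrt (hT0 b)]
  rw [e4, havT] at hcs
  have e5 : Real.sqrt ((J : ℝ) * ((τ : ℝ) ^ 2 * U μ P f))
      = Real.sqrt J * ((τ : ℝ) * Real.sqrt (U μ P f)) := by
    rw [Real.sqrt_mul (Nat.cast_nonneg J), Real.sqrt_mul (by positivity),
      Real.sqrt_sq (Nat.cast_nonneg τ)]
  rw [e5] at hcs
  have h6 : Real.sqrt (av μ fun x => lbar P f x ^ 2) ≤ Real.sqrt (U μ P f) :=
    Real.sqrt_le_sqrt havlb
  have h7 : Real.sqrt (av μ fun x => lbar P f x ^ 2) *
      (Real.sqrt J * ((τ : ℝ) * Real.sqrt (U μ P f))) ≤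
      Real.sqrt (U μ P f) * (Real.sqrt J * ((τ : ℝ) * Real.sqrt (U μ P f))) :=
    mul_le_mul_of_nonneg_right h6 (by positivity)
  have h8 : Real.sqrt (U μ P f) * (Real.sqrt J * ((τ : ℝ) * Real.sqrt (U μ P f)))
      = Real.sqrt J * τ * U μ P f := by
    have := Real.mul_self_sqrt hU0
    calc Real.sqrt (U μ P f) * (Real.sqrt J * ((τ : ℝ) * Real.sqrt (U μ P f)))
        = Real.sqrt J * τ * (Real.sqrt (U μ P f) * Real.sqrt (U μ P f)) := by ring
      _ = Real.sqrt J * τ * U μ P f := by rw [this]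
  linarith

end Vale.Agent.P125.J10
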