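import Mathlib

set_option linter.unusedSectionVars false
set_option linter.unusedVariables false

/-!
# P125 Poly: quadratic variation along any subdivision is paid by the own measure
-/

namespace Vale.Agent.P125.J10

open scoped BigOperators

theorem psi_sq_10 (a b : ℝ) : (b - a) ^ 2 ≤ 2 * abs (b * abs b - a * abs a) := by
  have h1 := le_abs_self (b * abs b - a * abs a)
  have h2 := neg_le_abs (b * abs b - a * abs a)
  rcases le_total 0 a with ha | ha <;> rcases le_total 0 b with hb | hb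
  · rw [abs_of_nonneg ha, abs_of_nonneg hb] at *
    rcases le_total a b with hab | hab
    · nlinarith [mul_nonneg (sub_nonneg.2 hab) (by linarith : 0 ≤ b + 3 * a)]
    · nlinarith [mul_nonneg (sub_nonneg.2 hab) (by linarith : 0 ≤ a + 3 * b)]
  · rw [abs_of_nonneg ha, abs_of_nonpos hb] at *
    nlinarith [sq_nonneg (a + b)]
  · rw [abs_of_nonpos ha, abs_of_nonneg hb] at *
    nlinarith [sq_nonneg (a + b)]
  · rw [abs_of_nonpos ha, abs_of_nonpos hb] at *
    rcases le_total a b with hab | hab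
    · nlinarith [mul_nonneg (sub_nonneg.2 hab) (by linarith : 0 ≤ -a - 3 * b)]
    · nlinarith [mul_nonneg (sub_nonneg.2 hab) (by linarith : 0 ≤ -b - 3 * a)]

theorem psi_le_10 (a b : ℝ) :
    abs (b * abs b - a * abs a) ≤ 4 * |b - a| * |b| + a ^ 2 - b ^ 2 := by
  rw [abs_le]
  rcases le_total 0 a with ha | ha <;> rcases le_total 0 b with hb | hb <;>
    rcases le_total a b with hab | hab
  · rw [abs_of_nonneg ha, abs_of_nonneg hb, abs_of_nonneg (sub_nonneg.2 hab)]
    constructor <;> nlinarith [mul_nonneg (sub_nonneg.2 hab) hb, sq_nonneg (a - b)]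
  · rw [abs_of_nonneg ha, abs_of_nonneg hb, abs_of_nonpos (sub_nonpos.2 hab)]
    constructor <;> nlinarith [mul_nonneg (sub_nonneg.2 hab) hb, sq_nonneg (a - b),
      mul_nonneg (sub_nonneg.2 hab) ha]
  · rw [abs_of_nonneg ha, abs_of_nonpos hb, abs_of_nonneg (sub_nonneg.2 hab)]
    have : a = 0 := le_antisymm (hab.trans hb) ha
    have : b = 0 := le_antisymm hb (ha.trans hab)
    subst_vars
    constructor <;> simp
  · rw [abs_of_nonneg ha, abs_of_nonpos hb, abs_of_nonpos (sub_nonpos.2 hab)]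
    constructor <;> nlinarith [mul_nonneg ha (neg_nonneg.2 hb), sq_nonneg a, sq_nonneg b]
  · rw [abs_of_nonpos ha, abs_of_nonneg hb, abs_of_nonneg (sub_nonneg.2 hab)]
    constructor <;> nlinarith [mul_nonneg (neg_nonneg.2 ha) hb, sq_nonneg a, sq_nonneg b]
  · rw [abs_of_nonpos ha, abs_of_nonneg hb, abs_of_nonpos (sub_nonpos.2 hab)]
    have : a = 0 := le_antisymm ha (hb.trans hab)
    have : b = 0 := le_antisymm (hab.trans ha) hb
    subst_vars
    constructor <;> simp
  · rw [abs_of_nonpos ha, abs_of_nonpos hb, abs_of_nonneg (sub_nonneg.2 hab)]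
    constructor <;> nlinarith [mul_nonneg (sub_nonneg.2 hab) (neg_nonneg.2 hb), sq_nonneg (a - b),
      mul_nonneg (sub_nonneg.2 hab) (neg_nonneg.2 ha)]
  · rw [abs_of_nonpos ha, abs_of_nonpos hb, abs_of_nonpos (sub_nonpos.2 hab)]
    constructor <;> nlinarith [mul_nonneg (sub_nonneg.2 hab) (neg_nonneg.2 hb), sq_nonneg (a - b)]

theorem abs_sub_le_Ico_10 (H : ℕ → ℝ) (a b : ℕ) (hab : a ≤ b) :
    |H b - H a| ≤ ∑ k ∈ Finset.Ico a b, |H (k + 1) - H k| := by
  induction b, hab using Nat.le_induction with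
  | base => simp
  | succ b hb ih =>
    rw [Finset.sum_Ico_succ_top hb]
    have : H (b + 1) - H a = (H b - H a) + (H (b + 1) - H b) := by ring
    rw [this]
    exact (abs_add_le _ _).trans (by linarith)

theorem tv_le_10 (H : ℕ → ℝ) (p : ℕ → ℕ) (hp : Monotone p) (m : ℕ) :
    ∑ r ∈ Finset.range m, |H (p (r + 1)) - H (p r)| ≤
      ∑ k ∈ Finset.Ico (p 0) (p m), |H (k + 1) - H k| := by
  induction m with
  | zero => simp
  | succ m ih =>
    rw [Finset.sum_range_succ,
      ← Finset.sum_Ico_consecutive _ (hp (Nat.zero_le m)) (hp (Nat.le_succ m))]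
    exact add_le_add ih (abs_sub_le_Ico_10 H _ _ (hp (Nat.le_succ m)))

/-- the squared quadratic variation of `G` along any subdivision is at most eight times the
own measure quantity -/
theorem james_det_10 (G : ℕ → ℝ) (hG0 : G 0 = 0) (n m : ℕ) (p : ℕ → ℕ) (hp : Monotone p)
    (hpn : p m ≤ n) :
    ∑ r ∈ Finset.range m, (G (p (r + 1)) - G (p r)) ^ 2 ≤
      8 * ∑ k ∈ Finset.range n, |G (k + 1) - G k| * |G (k + 1)| := by
  set H : ℕ → ℝ := fun k => G k * abs (G k) with hH
  have h1 : ∑ r ∈ Finset.range m, (G (p (r + 1)) - G (p r)) ^ 2 ≤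
      2 * ∑ r ∈ Finset.range m, |H (p (r + 1)) - H (p r)| := by
    rw [Finset.mul_sum]
    exact Finset.sum_le_sum fun r _ => psi_sq_10 _ _
  have h2 := tv_le_10 H p hp m
  have h3 : ∑ k ∈ Finset.Ico (p 0) (p m), |H (k + 1) - H k| ≤
      ∑ k ∈ Finset.range n, |H (k + 1) - H k| := by
    refine Finset.sum_le_sum_of_subset_of_nonneg ?_ (fun _ _ _ => abs_nonneg _)
    intro k hk
    rw [Finset.mem_Ico] at hk
    exact Finset.mem_range.2 (lt_of_lt_of_le hk.2 hpn)
  have h4 : ∑ k ∈ Finset.range n, |H (k + 1) - H k| ≤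
      ∑ k ∈ Finset.range n, (4 * (|G (k + 1) - G k| * |G (k + 1)|) + (G k ^ 2 - G (k + 1) ^ 2)) := by
    refine Finset.sum_le_sum fun k _ => ?_
    have := psi_le_10 (G k) (G (k + 1))
    simp only [hH]
    linarith
  rw [Finset.sum_add_distrib, ← Finset.mul_sum,
    Finset.sum_range_sub' (fun k => G k ^ 2) n, hG0] at h4
  nlinarith [sq_nonneg (G n)]

end Vale.Agent.P125.J10
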