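import Vale.Agent.P125.J10.Defs58
import Vale.Agent.P125.J10.Api75

set_option linter.unusedSectionVars false
set_option linter.unusedVariables false

/-! # P125 Poly: the calculus `Lib` of `op`, `av` -/

namespace Vale.Agent.P125.J10

open scoped BigOperators
open Vale.Agent.P125.Dich

lemma op_eq_75 {S : Type} [Fintype S] [DecidableEq S] (P : Matrix S S ℝ) (k : ℕ) (g : S → ℝ) :
    op P k g = J10x75.op (P ^ k) g := rfl

lemma av_mul_eq_75 {S : Type} [Fintype S] (μ g h : S → ℝ) :
    av μ (fun x => g x * h x) = J10x75.ip μ g h := by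
  unfold av J10x75.ip
  exact Finset.sum_congr rfl fun x _ => by ring

lemma av_sq_eq_75 {S : Type} [Fintype S] (μ g : S → ℝ) :
    av μ (fun x => g x ^ 2) = J10x75.ip μ g g := by
  unfold av J10x75.ip
  exact Finset.sum_congr rfl fun x _ => by ring

theorem stLib_75 : StLib := by
  intro S _ _ μ P hc
  have hk : ∀ k, IsChain μ (P ^ k) := fun k => isChain_pow hc k
  refine
    { mu_nonneg := hc.1
      mu_sum := hc.2.1
      pw_nonneg := fun k x y => (hk k).2.2.1 x y
      pw_sum := fun k x => (hk k).2.2.2.1 x
      pw_rev := fun k x y => (hk k).2.2.2.2 x y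
      pw_add := fun a b x y => by rw [pow_add, Matrix.mul_apply]
      op_zero := fun g => by
        funext x
        rw [op_eq_75, pow_zero, J10x75.op_one]
      op_one := fun g x => by
        rw [op_eq_75, pow_one]
        rfl
      op_op := fun a b g => by
        funext x
        rw [op_eq_75, op_eq_75, op_eq_75, J10x75.op_pow_add]
      op_mono := fun k g h hgh x => J10x75.op_mono (hk k) hgh x
      op_add := fun k g h x => J10x75.op_add (P ^ k) g h x
      op_sub := fun k g h x => J10x75.op_sub (P ^ k) g h x
      op_smul := fun k c g x => J10x75.op_smul (P ^ k) c g x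
      op_sum := fun ι s k g x => J10x75.op_sum s (P ^ k) g x
      op_const := fun k c x => J10x75.op_const (hk k) c x
      abs_op := fun k g x => J10x75.abs_op_le (hk k) g x
      sq_op := fun k g x => J10x75.op_sq_le (hk k) g x
      av_op := fun k g => J10x75.sum_op (hk k) g
      av_adj := fun k g h => by
        rw [av_mul_eq_75, av_mul_eq_75, op_eq_75, op_eq_75]
        exact J10x75.ip_op (hk k) g h
      av_mono := fun g h hgh =>
        Finset.sum_le_sum fun x _ => mul_le_mul_of_nonneg_left (hgh x) (hc.1 x)
      av_cs := fun g h => by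
        rw [av_mul_eq_75, av_sq_eq_75, av_sq_eq_75]
        exact J10x75.ip_le_sqrt hc g h }

end Vale.Agent.P125.J10
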